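import Vale.Agent.P098.F.Main
import Vale.Agent.P098.A.Main

open MeasureTheory

namespace Vale.Agent.Results.P098.A_full

open Vale.Agent.P098

theorem result (d : ℕ) (hd : d ≤ 6) (u : E d → ℝ) (g : E d → E d) (h : IsGlobalMin u g)
    (hom : ∀ r : ℝ, 0 < r → ∀ᵐ x, u (r • x) = r * u x) :
    (∀ᵐ x, u x = 0) ∨ ∃ e : E d, ‖e‖ = 1 ∧ ∀ᵐ x, u x = max (inner ℝ x e) 0 := by
  obtain ⟨v, hv, hm, hh⟩ := a_main h hom
  rcases flat_all d hd v hm hh with h0 | ⟨e, he, h1⟩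
  · left
    filter_upwards [hv] with x hx
    rw [← hx, h0 x]
  · right
    refine ⟨e, he, ?_⟩
    filter_upwards [hv] with x hx
    rw [← hx, h1 x, real_inner_comm]

end Vale.Agent.Results.P098.A_full
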