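import Vale.Agent.P098.S1.Main

namespace Vale.Agent.Results.P098.B_stable

open Vale.Agent.P098

theorem result (d : ℕ) (hd : d ≤ 6) (u : E d → ℝ) (h : Cone u) (x : E d) (hx : 0 < u x) :
    fderiv ℝ (fderiv ℝ u) x = 0 :=
  stage1 hd h x hx

end Vale.Agent.Results.P098.B_stable
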