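import Vale.Agent.P098.S1.F.Main

namespace Vale.Agent.Results.P098.C_cert

open Vale.Agent.P098

theorem result (n : ℕ) (h3 : 3 ≤ n) (h6 : n ≤ 6) :
    ∃ (g h : ℕ → PL) (η C : ℝ), ArrOK n g h η C ∧ BdOK g h := by
  have H : ∀ D : Dat, okAll D (items D) 0 68 = true → 4 * D.eps < 576 * D.m0 →
      bdChk D.g D.h = true → ∃ (g h : ℕ → PL) (η C : ℝ), ArrOK D.n g h η C ∧ BdOK g h :=
    fun D h1 h2 h3 => let ⟨η, C, ok⟩ := arr_of_chk (okAll_all h1) h2
      ⟨_, _, η, C, ok, bdOK_of h3⟩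
  interval_cases n
  · exact H dat3 ok3 (by decide +kernel) (by decide +kernel)
  · exact H dat4 ok4 (by decide +kernel) (by decide +kernel)
  · exact H dat5 ok5 (by decide +kernel) (by decide +kernel)
  · exact H dat6 ok6 (by decide +kernel) (by decide +kernel)

end Vale.Agent.Results.P098.C_cert
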