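import Vale.Agent.P098.D.Main

set_option maxSynthPendingDepth 3

namespace Vale.Agent.Results.P098.D_eps

open Vale.Agent.P098

theorem result (d : ℕ) : ∃ σ C r₀ : ℝ, 0 < σ ∧ 0 < r₀ ∧ ∀ (u : E d → ℝ) (e : E d), Mn u →
    (0 : E d) ∈ FB u → ‖e‖ = 1 → Trap u (fun x => inner ℝ e x) 1 σ →
      ∃ l : E d, ‖l‖ = 1 ∧
        ∀ r : ℝ, 0 < r → r ≤ r₀ → Trap u (fun x => inner ℝ l x) r (C * r ^ 2) := by
  obtain ⟨σ, C, r₀, hσ, hC, hr₀, H⟩ := eps_reg d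
  refine ⟨σ, 3 * C, min r₀ 1, hσ, lt_min hr₀ one_pos, fun u e hu h0 he ht => ?_⟩
  obtain ⟨l, j, sj, hj, H'⟩ := H u e hu h0 he ht
  refine ⟨l, sj.unit, fun r hr h => ?_⟩
  have r1 := h.trans (min_le_right _ _)
  have a : r ^ (7 / 2 : ℝ) ≤ r ^ 2 := by
    rw [← Real.rpow_natCast]
    exact Real.rpow_le_rpow_of_exponent_ge hr r1 (by norm_num)
  have b : r ^ 3 ≤ r ^ 2 := pow_le_pow_of_le_one hr.le r1 (by norm_num)
  have n2 : ‖j.2.2.1‖ ≤ C := (norm_fst_le j.2.2).trans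
    ((norm_snd_le j.2).trans ((norm_snd_le j).trans hj))
  have n3 : ‖j.2.2.2‖ ≤ C := (norm_snd_le j.2.2).trans
    ((norm_snd_le j.2).trans ((norm_snd_le j).trans hj))
  refine ((H' r hr (h.trans (min_le_left _ _))).congr (δ := 2 * C * r ^ 2) fun x hx => ?_).mono
    le_rfl (by nlinarith)
  have c := abs_ev_le ((0, 0, j.2.2.1, j.2.2.2) : Jet d) hx.le
  have e1 : ev j x - inner ℝ l x = ev ((0, 0, j.2.2.1, j.2.2.2) : Jet d) x := by
    simp only [ev, sj.c0, sj.c1, ContinuousLinearMap.zero_apply]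
    ring
  simp only [abs_zero, norm_zero, zero_mul, zero_add] at c
  rw [e1]
  nlinarith [mul_le_mul_of_nonneg_right n2 (sq_nonneg r), norm_nonneg j.2.2.2,
    mul_le_mul n3 b (pow_nonneg hr.le 3) (zero_le_one.trans hC)]

end Vale.Agent.Results.P098.D_eps
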